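import Mathlib

namespace Vale.Agent.Results.P038.CayleyAbelian

open Finset
open scoped Classical Pointwise

/-- First out-neighbourhood `N_1^+(v)` of `v` in the digraph on the finite vertex type `V`
with arc relation `arc` (`arc x y` means `x → y`). -/
noncomputable def outNbr {V : Type*} [Fintype V] (arc : V → V → Prop) (v : V) : Finset V :=
  univ.filter (fun u => arc v u)

/-- Second out-neighbourhood `N_2^+(v)`: the vertices `w ∉ {v} ∪ N_1^+(v)` with
`v → u → w` for some `u`. -/
noncomputable def secondNbr {V : Type*} [Fintype V] (arc : V → V → Prop) (v : V) : Finset V :=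
  univ.filter (fun w => w ≠ v ∧ ¬ arc v w ∧ ∃ u, arc v u ∧ arc u w)

/-- Scherk's theorem (by the Dyson e-transform). -/
lemma scherk {G : Type*} [AddCommGroup G] :
    ∀ (n : ℕ) (A B : Finset G), B.card = n → (0 : G) ∈ A → (0 : G) ∈ B →
      (∀ a ∈ A, ∀ b ∈ B, a + b = 0 → a = 0) → A.card + B.card ≤ (A + B).card + 1 := by
  intro n
  induction n using Nat.strong_induction_on with
  | _ n ih =>
    intro A B hBn hA0 hB0 huniq
    by_cases hcase : ∀ e ∈ A, ∀ b ∈ B, e + b ∈ A
    · -- then B = {0}
      have hB1 : B = {0} := by
        apply Finset.eq_singleton_iff_unique_mem.mpr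
        refine ⟨hB0, ?_⟩
        intro b hb
        -- translation by b maps A into A injectively, hence onto
        have himg : A.image (fun x => x + b) = A := by
          apply Finset.eq_of_subset_of_card_le
          · intro y hy
            rcases Finset.mem_image.mp hy with ⟨x, hx, rfl⟩
            exact hcase x hx b hb
          · rw [Finset.card_image_of_injective _ (add_left_injective b)]
        have h0 : (0 : G) ∈ A.image (fun x => x + b) := by rw [himg]; exact hA0
        rcases Finset.mem_image.mp h0 with ⟨x, hx, hxb⟩
        have hx0 := huniq x hx b hb hxb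
        rw [hx0, zero_add] at hxb
        exact hxb
      rw [hB1]
      simp
    · simp only [not_forall] at hcase
      obtain ⟨e, heA, b0, hb0B, hb0⟩ := hcase
      set B' : Finset G := B.filter (fun b => e + b ∈ A) with hB'
      set A' : Finset G := A ∪ B.image (fun b => e + b) with hA'
      have hB'sub : B' ⊆ B := Finset.filter_subset _ _
      have hB'lt : B'.card < B.card := by
        apply Finset.card_lt_card
        refine ⟨hB'sub, ?_⟩
        intro hsub
        have := hsub hb0B
        rw [hB', Finset.mem_filter] at this
        exact hb0 this.2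
      have hA'0 : (0 : G) ∈ A' := Finset.mem_union_left _ hA0
      have hB'0 : (0 : G) ∈ B' := by
        rw [hB', Finset.mem_filter]
        exact ⟨hB0, by simpa using heA⟩
      have huniq' : ∀ a ∈ A', ∀ b ∈ B', a + b = 0 → a = 0 := by
        intro a ha b hb hab
        rw [hB', Finset.mem_filter] at hb
        rcases Finset.mem_union.mp ha with ha | ha
        · exact huniq a ha b hb.1 hab
        · rcases Finset.mem_image.mp ha with ⟨c, hc, rfl⟩
          have h1 : (e + b) + c = 0 := by rw [← hab]; abel
          have h2 := huniq (e + b) hb.2 c hc h1
          have h3 : c = 0 := by rw [h2, zero_add] at h1; exact h1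
          have h4 := huniq e heA b hb.1 h2
          rw [h4, h3, add_zero]
      have hsum : A' + B' ⊆ A + B := by
        intro x hx
        rcases Finset.mem_add.mp hx with ⟨a, ha, b, hb, rfl⟩
        rw [hB', Finset.mem_filter] at hb
        rcases Finset.mem_union.mp ha with ha | ha
        · exact Finset.add_mem_add ha hb.1
        · rcases Finset.mem_image.mp ha with ⟨c, hc, rfl⟩
          have : e + c + b = (e + b) + c := by abel
          rw [this]
          exact Finset.add_mem_add hb.2 hc
      have hcard : A'.card + B'.card = A.card + B.card := by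
        have h1 : A' = A ∪ (B.image (fun b => e + b) \ A) := by
          rw [hA']; exact (Finset.union_sdiff_self_eq_union).symm
        have h2 : Disjoint A (B.image (fun b => e + b) \ A) := Finset.disjoint_sdiff
        have h3 : (B.image (fun b => e + b) \ A).card + B'.card = B.card := by
          have h4 : B.image (fun b => e + b) \ A = (B \ B').image (fun b => e + b) := by
            ext x
            simp only [Finset.mem_sdiff, Finset.mem_image, hB', Finset.mem_filter]
            constructor
            · rintro ⟨⟨c, hc, rfl⟩, hx⟩
              exact ⟨c, ⟨hc, fun h => hx h.2⟩, rfl⟩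
            · rintro ⟨c, ⟨hc, hc2⟩, rfl⟩
              exact ⟨⟨c, hc, rfl⟩, fun h => hc2 ⟨hc, h⟩⟩
          rw [h4, Finset.card_image_of_injective _ (add_right_injective e),
            Finset.card_sdiff_of_subset hB'sub]
          have := Finset.card_le_card hB'sub
          omega
        rw [h1, Finset.card_union_of_disjoint h2]
        omega
      have hih := ih B'.card (by rw [← hBn]; exact hB'lt) A' B' rfl hA'0 hB'0 huniq'
      have hle := Finset.card_le_card hsum
      omega

/-- additive core: if `A ∩ (-A) = ∅` then `|(A + A) \ A| ≥ |A|`. -/
lemma core {G : Type*} [AddCommGroup G] (A : Finset G) (hA : ∀ a ∈ A, -a ∉ A) :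
    A.card ≤ ((A + A) \ A).card := by
  have h0A : (0 : G) ∉ A := by
    intro h
    have := hA 0 h
    rw [neg_zero] at this
    exact this h
  set B : Finset G := insert 0 A with hB
  have hB0 : (0 : G) ∈ B := Finset.mem_insert_self _ _
  have huniq : ∀ a ∈ B, ∀ b ∈ B, a + b = 0 → a = 0 := by
    intro a ha b hb hab
    rcases Finset.mem_insert.mp ha with rfl | ha
    · rfl
    · rcases Finset.mem_insert.mp hb with rfl | hb
      · rw [add_zero] at hab; exact hab
      · exfalso
        have : b = -a := by
          rw [eq_neg_iff_add_eq_zero, add_comm]; exact hab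
        rw [this] at hb
        exact hA a ha hb
  have hs := scherk B.card B B rfl hB0 hB0 huniq
  have hBcard : B.card = A.card + 1 := Finset.card_insert_of_notMem h0A
  have hsub : B + B ⊆ insert 0 (A ∪ (A + A)) := by
    intro x hx
    rcases Finset.mem_add.mp hx with ⟨a, ha, b, hb, rfl⟩
    rcases Finset.mem_insert.mp ha with rfl | ha
    · rcases Finset.mem_insert.mp hb with rfl | hb
      · simp
      · rw [zero_add]
        exact Finset.mem_insert_of_mem (Finset.mem_union_left _ hb)
    · rcases Finset.mem_insert.mp hb with rfl | hb
      · rw [add_zero]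
        exact Finset.mem_insert_of_mem (Finset.mem_union_left _ ha)
      · exact Finset.mem_insert_of_mem (Finset.mem_union_right _ (Finset.add_mem_add ha hb))
  have h1 := Finset.card_le_card hsub
  have h2 : (insert 0 (A ∪ (A + A))).card ≤ (A ∪ (A + A)).card + 1 := Finset.card_insert_le _ _
  have h3 : (A ∪ (A + A)).card = A.card + ((A + A) \ A).card := by
    rw [← Finset.union_sdiff_self_eq_union, Finset.card_union_of_disjoint Finset.disjoint_sdiff]
  omega

/-- **Seymour's second neighbourhood conjecture for Cayley digraphs of finite abelian groups.**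
Let `G` be a finite abelian group and `A ⊆ G` with `A ∩ (-A) = ∅`, so that the Cayley digraph
with arcs `x → y` iff `y - x ∈ A` is an oriented graph. Then every vertex `v` satisfies
`|N_1^+(v)| ≤ |N_2^+(v)|`. -/
theorem result (G : Type*) [AddCommGroup G] [Fintype G] (A : Finset G)
    (hA : ∀ a ∈ A, -a ∉ A) (v : G) :
    (outNbr (fun x y => y - x ∈ A) v).card ≤ (secondNbr (fun x y => y - x ∈ A) v).card := by
  have h1 : (outNbr (fun x y => y - x ∈ A) v).card ≤ A.card := by
    have : outNbr (fun x y => y - x ∈ A) v ⊆ A.image (fun a => v + a) := by
      intro u hu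
      simp only [outNbr, Finset.mem_filter, Finset.mem_univ, true_and] at hu
      exact Finset.mem_image.mpr ⟨u - v, hu, by abel⟩
    exact (Finset.card_le_card this).trans Finset.card_image_le
  have h2 : ((A + A) \ A).image (fun c => v + c) ⊆ secondNbr (fun x y => y - x ∈ A) v := by
    intro w hw
    rcases Finset.mem_image.mp hw with ⟨c, hc, rfl⟩
    rw [Finset.mem_sdiff] at hc
    rcases Finset.mem_add.mp hc.1 with ⟨a, ha, b, hb, rfl⟩
    simp only [secondNbr, Finset.mem_filter, Finset.mem_univ, true_and]
    refine ⟨?_, ?_, ?_⟩
    · intro h
      have hab : a + b = 0 := by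
        have : v + (a + b) - v = v - v := by rw [h]
        simpa using this
      have : b = -a := by
        rw [eq_neg_iff_add_eq_zero, add_comm]; exact hab
      rw [this] at hb
      exact hA a ha hb
    · intro h
      apply hc.2
      have : v + (a + b) - v = a + b := by abel
      rw [this] at h
      exact h
    · refine ⟨v + a, ?_, ?_⟩
      · have : v + a - v = a := by abel
        show v + a - v ∈ A
        rw [this]; exact ha
      · have : v + (a + b) - (v + a) = b := by abel
        show v + (a + b) - (v + a) ∈ A
        rw [this]; exact hb
  have h3 : (((A + A) \ A).image (fun c => v + c)).card = ((A + A) \ A).card :=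
    Finset.card_image_of_injective _ (add_right_injective v)
  have h4 := Finset.card_le_card h2
  have h5 := core A hA
  omega

end Vale.Agent.Results.P038.CayleyAbelian
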